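import Vale.Agent.Lib.P327.Main

/-!
# P327: automorphisms of the Turing degrees induced by locally finite or affine homeomorphisms

`X` is Cantor space `ℕ → Bool`, `Deg` the Turing degrees of subsets of `ℕ`, `Deg.le` their order.
-/

namespace Vale.Agent.Results.P327.A_main

open Vale.Agent.Lib.P327

/-- `π` is an automorphism of the Turing degrees induced by the map `f` on subsets of `ℕ`. -/
def InducedAut (π : Deg ≃ Deg) (f : X → X) : Prop :=
  (∀ a b, Deg.le a b ↔ Deg.le (π a) (π b)) ∧ ∀ A, π (deg A) = deg (f A)

theorem result :
    -- locally finite homeomorphisms: every input bit influences finitely many output bits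
    (∀ f : X ≃ₜ X, TailLocal f → TailLocal f.symm →
      ∀ π : Deg ≃ Deg, InducedAut π f → ∀ a, π a = a) ∧
    -- homeomorphisms that are affine over the field with two elements
    (∀ f : X ≃ₜ X, IsAffine f →
      ∀ π : Deg ≃ Deg, InducedAut π f → ∀ a, π a = a) ∧
    -- the common generalisation, a condition on the conjugates of the shift
    (∀ f : X ≃ₜ X, LocalDiff (fun y => f (shift (f.symm y))) →
      LocalDiff (fun y => f.symm (shift (f y))) →
      ∀ π : Deg ≃ Deg, InducedAut π f → ∀ a, π a = a) ∧
    -- bit permutations are locally finite, so the permutation theorem is a special case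
    (∀ p : Equiv.Perm ℕ, TailLocal (fun (x : X) (n : ℕ) => x (p n))) := by
  refine ⟨?_, ?_, ?_, tailLocal_perm⟩
  · intro f h1 h2 π hπ a
    exact rigid_tailLocal f.continuous f.symm.continuous f.apply_symm_apply f.symm_apply_apply
      h1 h2 π hπ.1 hπ.2 a
  · intro f h1 π hπ a
    exact rigid_affine f.continuous f.symm.continuous f.apply_symm_apply f.symm_apply_apply
      h1 π hπ.1 hπ.2 a
  · intro f h1 h2 π hπ a
    exact rigid_deg f.continuous f.symm.continuous f.apply_symm_apply f.symm_apply_apply
      h1 h2 π hπ.1 hπ.2 a

end Vale.Agent.Results.P327.A_main
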